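import Vale.Agent.P024.Reductions

namespace Vale.Agent.Results.P024.NormalForms

open Vale.Agent.P024

universe u

/-- Uchida's conjecture is equivalent to its isomorphism form (source an arbitrary Galois extension
of a number field, not assumed solvably closed; the homomorphism a continuous isomorphism), and also
to its absolute surjective form (source algebraically closed; the homomorphism surjective). -/
theorem result :
    (UchidaConjecture.{u} ↔ UchidaIsoForm.{u}) ∧
      (UchidaConjecture.{u} ↔ UchidaAbsSurjForm.{u}) :=
  ⟨⟨fun h => isoForm_of_absSurj (absSurj_of_conj h), conj_of_isoForm⟩,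
    ⟨absSurj_of_conj, fun h => conj_of_isoForm (isoForm_of_absSurj h)⟩⟩

end Vale.Agent.Results.P024.NormalForms
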